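import Vale.Agent.P034.Main

namespace Vale.Agent.Results.P034.Talagrand

open Vale.Agent.P034

theorem result : ∃ K : ℝ, K = 3 * 512 ^ 3 ∧
    ∀ (X : Type) [Fintype X] [DecidableEq X] [Nonempty X] (F : Set (Finset X)),
      F.Nonempty → IsUpperSet F → ∅ ∉ F → qf F ≤ K * q F :=
  ⟨_, rfl, fun _ _ _ _ F _ _ _ => qf_le F⟩

end Vale.Agent.Results.P034.Talagrand
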